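import Vale.Agent.Lib.P074.Main
import Vale.Agent.Lib.P074S.OptMap
import Vale.Agent.Lib.P074B.Final
import Vale.Agent.Lib.P074T.ZFinal

open MeasureTheory Vale.Agent.Lib.P074
open scoped ENNReal NNReal

namespace Vale.Agent.Results.P074.AdmissibleSetPlain

/-- The quadratic Wasserstein distance of two probability measures carried by a bounded set. -/
theorem W2_le_of_bdd {d : ℕ} {μ ν : Measure (E d)} [IsProbabilityMeasure μ]
    [IsProbabilityMeasure ν] {Y : Set (E d)} (hμ : μ Yᶜ = 0) (hν : ν Yᶜ = 0)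
    {L : ℝ} (hL0 : 0 ≤ L) (hL : ∀ y ∈ Y, ‖y‖ ≤ L) : W2 μ ν ≤ ENNReal.ofReal (2 * L) := by
  have h1 : (μ.prod ν).map Prod.fst = μ := by
    rw [Measure.map_fst_prod, measure_univ, one_smul]
  have h2 : (μ.prod ν).map Prod.snd = ν := by
    rw [Measure.map_snd_prod, measure_univ, one_smul]
  have a1 : ∀ᵐ p ∂(μ.prod ν), p.1 ∈ Y :=
    Measure.quasiMeasurePreserving_fst.ae (measure_eq_zero_iff_ae_notMem.1 hμ |>.mono
      fun x hx => by simpa using hx)
  have a2 : ∀ᵐ p ∂(μ.prod ν), p.2 ∈ Y :=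
    Measure.quasiMeasurePreserving_snd.ae (measure_eq_zero_iff_ae_notMem.1 hν |>.mono
      fun x hx => by simpa using hx)
  have h3 : ∫⁻ p, ENNReal.ofReal (‖p.1 - p.2‖ ^ 2) ∂(μ.prod ν) ≤ ENNReal.ofReal ((2 * L) ^ 2) := by
    calc ∫⁻ p, ENNReal.ofReal (‖p.1 - p.2‖ ^ 2) ∂(μ.prod ν)
        ≤ ∫⁻ _p, ENNReal.ofReal ((2 * L) ^ 2) ∂(μ.prod ν) := by
          apply lintegral_mono_ae
          filter_upwards [a1, a2] with p hp1 hp2
          apply ENNReal.ofReal_le_ofReal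
          apply pow_le_pow_left₀ (norm_nonneg _)
          calc ‖p.1 - p.2‖ ≤ ‖p.1‖ + ‖p.2‖ := norm_sub_le _ _
            _ ≤ 2 * L := by linarith [hL _ hp1, hL _ hp2]
      _ = ENNReal.ofReal ((2 * L) ^ 2) := by simp
  unfold W2
  calc (⨅ π : {π : Measure (E d × E d) // π.map Prod.fst = μ ∧ π.map Prod.snd = ν},
        ∫⁻ p, ENNReal.ofReal (‖p.1 - p.2‖ ^ 2) ∂π.1) ^ (1 / 2 : ℝ)
      ≤ (ENNReal.ofReal ((2 * L) ^ 2)) ^ (1 / 2 : ℝ) := by
        apply ENNReal.rpow_le_rpow _ (by norm_num)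
        exact (iInf_le _ (⟨μ.prod ν, h1, h2⟩ :
          {π : Measure (E d × E d) // π.map Prod.fst = μ ∧ π.map Prod.snd = ν})).trans h3
    _ = ENNReal.ofReal (2 * L) := by
        rw [ENNReal.ofReal_rpow_of_nonneg (by positivity) (by norm_num), ← Real.sqrt_eq_rpow,
          Real.sqrt_sq (by positivity)]

/-- Every positive exponent below an admissible one is admissible. -/
theorem admissible_mono {d : ℕ} {α β : ℝ} (hα : 0 < α) (hαβ : α ≤ β) (h : Admissible d β) :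
    Admissible d α := by
  intro K hK hconv hint Y hY hYne
  obtain ⟨C, hC⟩ := h K hK hconv hint Y hY hYne
  obtain ⟨L1, hL1⟩ := hY.isBounded.exists_norm_le
  set L : ℝ := max L1 0 with hLdef
  have hL0 : 0 ≤ L := le_max_right _ _
  have hL : ∀ y ∈ Y, ‖y‖ ≤ L := fun y hy => (hL1 y hy).trans (le_max_left _ _)
  refine ⟨C * (2 * L).toNNReal ^ (β - α), ?_⟩
  intro μ ν hμp hνp hμ hν T S hT hS
  have hW := W2_le_of_bdd hμ hν hL0 hL
  have e1 : W2 μ ν ^ β = W2 μ ν ^ α * W2 μ ν ^ (β - α) := by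
    rw [← ENNReal.rpow_add_of_nonneg _ _ hα.le (by linarith)]
    congr 1
    ring
  calc L2dist (unif K) T S ≤ C * W2 μ ν ^ β := hC μ ν hμp hνp hμ hν T S hT hS
    _ = C * (W2 μ ν ^ α * W2 μ ν ^ (β - α)) := by rw [e1]
    _ ≤ C * (W2 μ ν ^ α * ENNReal.ofReal (2 * L) ^ (β - α)) := by
        gcongr
    _ = ((C * (2 * L).toNNReal ^ (β - α) : ℝ≥0) : ℝ≥0∞) * W2 μ ν ^ α := by
        rw [ENNReal.coe_mul, ENNReal.coe_rpow_of_nonneg _ (by linarith)]
        simp only [ENNReal.ofReal]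
        ring

/-- `R^d` with the Euclidean norm. -/
abbrev Rd (d : ℕ) : Type := EuclideanSpace ℝ (Fin d)

/-- The uniform probability measure `|K|⁻¹ 1_K dx`. -/
noncomputable def uniformOn {d : ℕ} (K : Set (Rd d)) : Measure (Rd d) :=
  (volume K)⁻¹ • volume.restrict K

/-- `T` is a quadratic optimal transport map from `ρ` to `μ`. -/
def Optimal {d : ℕ} (ρ μ : Measure (Rd d)) (T : Rd d → Rd d) : Prop :=
  Measurable T ∧ ρ.map T = μ ∧ ∀ R : Rd d → Rd d, Measurable R → ρ.map R = μ →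
    ∫⁻ x, ENNReal.ofReal (‖x - T x‖ ^ 2) ∂ρ ≤ ∫⁻ x, ENNReal.ofReal (‖x - R x‖ ^ 2) ∂ρ

/-- The `L²(ρ)` norm of `T - S`. -/
noncomputable def normL2 {d : ℕ} (ρ : Measure (Rd d)) (T S : Rd d → Rd d) : ℝ≥0∞ :=
  (∫⁻ x, ENNReal.ofReal (‖T x - S x‖ ^ 2) ∂ρ) ^ (1 / 2 : ℝ)

/-- The quadratic Wasserstein distance. -/
noncomputable def wass {d : ℕ} (μ ν : Measure (Rd d)) : ℝ≥0∞ :=
  (⨅ π : {π : Measure (Rd d × Rd d) // π.map Prod.fst = μ ∧ π.map Prod.snd = ν},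
      ∫⁻ p, ENNReal.ofReal (‖p.1 - p.2‖ ^ 2) ∂π.1) ^ (1 / 2 : ℝ)

/-- For `d ≥ 2`. (1) For `0 < α ≤ 1` the stability estimate
`‖T_μ - T_ν‖_{L²(ρ)} ≤ C(K,Y) W₂(μ,ν)^α` holds for all compact convex `K` with nonempty interior
(`ρ` uniform on `K`) and all nonempty compact `Y` if and only if `α ≤ 1/3`.
(2) Optimal maps exist. -/
theorem result : ∀ d : ℕ, 2 ≤ d →
    (∀ α : ℝ, 0 < α → α ≤ 1 →
      ((∀ K : Set (Rd d), IsCompact K → Convex ℝ K → (interior K).Nonempty →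
        ∀ Y : Set (Rd d), IsCompact Y → Y.Nonempty →
        ∃ C : ℝ≥0, ∀ μ ν : Measure (Rd d),
          IsProbabilityMeasure μ → IsProbabilityMeasure ν → μ Yᶜ = 0 → ν Yᶜ = 0 →
          ∀ T S : Rd d → Rd d, Optimal (uniformOn K) μ T → Optimal (uniformOn K) ν S →
            normL2 (uniformOn K) T S ≤ C * wass μ ν ^ α)
        ↔ α ≤ 1 / 3)) ∧
    (∀ K : Set (Rd d), IsCompact K → (interior K).Nonempty → ∀ Y : Set (Rd d), IsCompact Y →
      ∀ μ : Measure (Rd d), IsProbabilityMeasure μ → μ Yᶜ = 0 →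
        ∃ T : Rd d → Rd d, Optimal (uniformOn K) μ T) := by
  intro d hd
  have : NeZero d := ⟨by omega⟩
  refine ⟨fun α hα0 _ => ⟨?_, ?_⟩, ?_⟩
  · intro h
    by_contra hlt
    exact not_admissible d hd α (not_le.1 hlt) h
  · intro hle
    exact admissible_mono hα0 hle admissible_third
  · intro K hK hint Y hY μ hμp hμ
    have hYne : Y.Nonempty := by
      by_contra hne
      rw [Set.not_nonempty_iff_eq_empty] at hne
      rw [hne, Set.compl_empty, measure_univ] at hμ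
      exact one_ne_zero hμ
    obtain ⟨T, hT⟩ := exists_brenierMap hK hint hY hYne μ hμ
    exact ⟨T, IsBrenierMap.isOptMap hK hint hY hμ hT⟩

end Vale.Agent.Results.P074.AdmissibleSetPlain
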