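import Vale.Agent.Lib.P074.Main
import Vale.Agent.Lib.P074S.Stab
import Vale.Agent.Lib.P074S.OptMap
import Vale.Agent.Lib.P074S.PotMain
import Vale.Agent.Lib.P074B.Final
import Vale.Agent.Lib.P074T.ZFinal

open MeasureTheory Vale.Agent.Lib.P074
open scoped ENNReal NNReal

namespace Vale.Agent.Results.P074.ExactExponentOneThird

/-- In every dimension `d ≥ 2`: the exponent `1/3` is admissible and no exponent above `1/3` is
admissible. So `1/3` is the greatest admissible exponent: the supremum of the admissible exponents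
equals `1/3` and it is attained. Every probability measure carried by a compact set is the target
of an optimal map, so that admissibility is not vacuous. -/
theorem result : ∀ d : ℕ, 2 ≤ d →
    Admissible d (1 / 3) ∧ (∀ α : ℝ, 1 / 3 < α → ¬ Admissible d α) ∧
    IsGreatest {α : ℝ | 0 < α ∧ α ≤ 1 ∧ Admissible d α} (1 / 3) ∧
    sSup {α : ℝ | 0 < α ∧ α ≤ 1 ∧ Admissible d α} = 1 / 3 ∧
    ¬ Admissible d (1 / 2) ∧
    (∀ K : Set (E d), IsCompact K → (interior K).Nonempty → ∀ Y : Set (E d), IsCompact Y →
      ∀ μ : Measure (E d), IsProbabilityMeasure μ → μ Yᶜ = 0 →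
        ∃ T : E d → E d, IsOptMap (unif K) μ T) := by
  intro d hd
  haveI : NeZero d := ⟨by omega⟩
  have hadm : Admissible d (1 / 3) := admissible_third
  have hno : ∀ α : ℝ, 1 / 3 < α → ¬ Admissible d α := fun α hα => not_admissible d hd α hα
  have hgr : IsGreatest {α : ℝ | 0 < α ∧ α ≤ 1 ∧ Admissible d α} (1 / 3) := by
    refine ⟨⟨by norm_num, by norm_num, hadm⟩, ?_⟩
    intro α hα
    by_contra hlt
    exact hno α (not_le.1 hlt) hα.2.2
  refine ⟨hadm, hno, hgr, hgr.csSup_eq, hno _ (by norm_num), ?_⟩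
  intro K hK hint Y hY μ hμp hμ
  have hYne : Y.Nonempty := by
    by_contra hne
    rw [Set.not_nonempty_iff_eq_empty] at hne
    rw [hne, Set.compl_empty, measure_univ] at hμ
    exact one_ne_zero hμ
  obtain ⟨T, hT⟩ := exists_brenierMap hK hint hY hYne μ hμ
  exact ⟨T, IsBrenierMap.isOptMap hK hint hY hμ hT⟩

end Vale.Agent.Results.P074.ExactExponentOneThird
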