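import Vale.Agent.Lib.P074.Main

/-!
# P074: the cube as a source, three-atom targets

For every `d ≥ 2` there are a compact convex `K` with nonempty interior and a compact `Y` such that
for every exponent `α > 1/3` and every constant `C` the stability estimate with exponent `α` and
constant `C` fails for some pair of targets in `Y`.
-/

namespace Vale.Agent.Results.P074.ExplicitCubeExample

open MeasureTheory Vale.Agent.Lib.P074
open scoped ENNReal NNReal

theorem result (d : ℕ) (hd : 2 ≤ d) :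
    ∃ K Y : Set (E d),
      IsCompact K ∧ Convex ℝ K ∧ (interior K).Nonempty ∧ IsCompact Y ∧ Y.Nonempty ∧
      ∀ α : ℝ, 1 / 3 < α → ∀ C : ℝ≥0,
      ∃ μ ν : Measure (E d),
        IsProbabilityMeasure μ ∧ IsProbabilityMeasure ν ∧ μ Yᶜ = 0 ∧ ν Yᶜ = 0 ∧
      ∃ T S : E d → E d,
        IsOptMap (unif K) μ T ∧ IsOptMap (unif K) ν S ∧
        (C : ℝ≥0∞) * W2 μ ν ^ α < L2dist (unif K) T S := by
  let i0 : Fin d := ⟨0, by omega⟩
  let i1 : Fin d := ⟨1, by omega⟩
  have h01 : i0 ≠ i1 := by simp [i0, i1, Fin.ext_iff]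
  refine ⟨cube d, Metric.closedBall 0 1, isCompact_box _ _, convex_box _ _,
    interior_cube_nonempty, isCompact_closedBall 0 1, ⟨0, by simp⟩, ?_⟩
  intro α hα C
  by_contra hcon
  have hα0 : 0 < α := by linarith
  apply no_const C α (NNReal.coe_nonneg C) hα
  intro ε hε0 hε
  have hopt1 := isOptMap_Tmap i0 i1 h01 1 ε (by norm_num) hε0.le (by linarith)
  have hopt2 := isOptMap_Tmap i0 i1 h01 (-1) ε (by norm_num) hε0.le (by linarith)
  have hu : rho d = unif (cube d) := unif_cube.symm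
  rw [hu] at hopt1 hopt2
  have hmain : L2dist (unif (cube d)) (Tmap i0 i1 1 ε) (Tmap i0 i1 (-1) ε) ≤
      C * W2 ((unif (cube d)).map (Tmap i0 i1 1 ε)) ((unif (cube d)).map (Tmap i0 i1 (-1) ε)) ^ α := by
    by_contra hlt
    rw [not_le] at hlt
    apply hcon
    have hp : IsProbabilityMeasure (unif (cube d)) := by rw [← hu]; infer_instance
    refine ⟨_, _,
      Measure.isProbabilityMeasure_map (measurable_Tmap i0 i1 1 ε).aemeasurable,
      Measure.isProbabilityMeasure_map (measurable_Tmap i0 i1 (-1) ε).aemeasurable,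
      ?_, ?_, _, _, hopt1, hopt2, hlt⟩
    · rw [← hu]
      exact map_Tmap_compl_ball i0 i1 1 ε (by norm_num) hε0.le (by linarith)
    · rw [← hu]
      exact map_Tmap_compl_ball i0 i1 (-1) ε (by norm_num) hε0.le (by linarith)
  rw [← hu] at hmain
  have hlow := L2dist_ge i0 i1 h01 ε hε0 hε
  have hup := W2_le i0 i1 h01 1 ε (by norm_num) hε0.le hε
  have hchain : (ENNReal.ofReal (ε / 16)) ^ (1 / 2 : ℝ)
      ≤ (C : ℝ≥0∞) * ((ENNReal.ofReal (8 * ε ^ 3)) ^ (1 / 2 : ℝ)) ^ α := by
    refine hlow.trans (hmain.trans ?_)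
    gcongr
  have p1 : 0 < ε / 16 := by positivity
  have p2 : 0 < 8 * ε ^ 3 := by positivity
  have p3 : 0 < (8 * ε ^ 3) ^ (1 / 2 : ℝ) := Real.rpow_pos_of_pos p2 _
  rw [ENNReal.ofReal_rpow_of_pos p1, ENNReal.ofReal_rpow_of_pos p2, ENNReal.ofReal_rpow_of_pos p3,
    ← ENNReal.ofReal_coe_nnreal, ← ENNReal.ofReal_mul (NNReal.coe_nonneg C)] at hchain
  exact (ENNReal.ofReal_le_ofReal_iff (by positivity)).1 hchain

end Vale.Agent.Results.P074.ExplicitCubeExample
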