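import Vale.Agent.Lib.P074.Main
import Vale.Agent.Lib.P074S.Stab
import Vale.Agent.Lib.P074S.OptMap
import Vale.Agent.Lib.P074S.PotMain
import Vale.Agent.Lib.P074B.Final

open MeasureTheory Vale.Agent.Lib.P074
open scoped ENNReal NNReal

namespace Vale.Agent.Results.P074.ExponentBetweenQuarterAndThird

/-- In every dimension `d ≥ 2`: the exponent `1/4` is admissible, no exponent above `1/3` is
admissible, so the supremum of the admissible exponents lies in `[1/4, 1/3]`. Moreover the bound
with exponent `1/4` holds with `W₁` in place of `W₂` and for every compact source domain with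
nonempty interior, convex or not; and every probability measure carried by a compact set is the
target of an optimal map, so that none of these statements is vacuous. -/
theorem result : ∀ d : ℕ, 2 ≤ d →
    Admissible d (1 / 4) ∧ (∀ α : ℝ, 1 / 3 < α → ¬ Admissible d α) ∧
    1 / 4 ≤ sSup {α : ℝ | 0 < α ∧ α ≤ 1 ∧ Admissible d α} ∧
    sSup {α : ℝ | 0 < α ∧ α ≤ 1 ∧ Admissible d α} ≤ 1 / 3 ∧
    (∀ K : Set (E d), IsCompact K → (interior K).Nonempty → ∀ Y : Set (E d), IsCompact Y →
      (∃ C : ℝ≥0, ∀ μ ν : Measure (E d), μ Yᶜ = 0 → ν Yᶜ = 0 →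
        ∀ T S : E d → E d, IsOptMap (unif K) μ T → IsOptMap (unif K) ν S →
          L2dist (unif K) T S ≤ C * W1 μ ν ^ (1 / 4 : ℝ)) ∧
      (∀ μ : Measure (E d), IsProbabilityMeasure μ → μ Yᶜ = 0 →
        ∃ T : E d → E d, IsOptMap (unif K) μ T)) := by
  intro d hd
  haveI : NeZero d := ⟨by omega⟩
  have hadm : Admissible d (1 / 4) := by
    intro K hK _ hint Y hY _
    obtain ⟨C, hC⟩ := stab_W2 hK hint hY
    refine ⟨C, fun μ ν _ _ hμ hν T S hT hS => ?_⟩
    exact hC μ ν hμ hν T S (IsOptMap.isBrenierMap hK hint hY hμ hT)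
      (IsOptMap.isBrenierMap hK hint hY hν hS)
  refine ⟨hadm, fun α hα => not_admissible d hd α hα, ?_, ?_, ?_⟩
  · apply le_csSup
    · exact ⟨1, fun α hα => hα.2.1⟩
    · exact ⟨by norm_num, by norm_num, hadm⟩
  · apply Real.sSup_le _ (by norm_num)
    intro α hα
    by_contra hlt
    exact not_admissible d hd α (not_le.1 hlt) hα.2.2
  · intro K hK hint Y hY
    constructor
    · obtain ⟨C, hC⟩ := stab_W1 hK hint hY
      refine ⟨C, fun μ ν hμ hν T S hT hS => ?_⟩
      exact hC μ ν hμ hν T S (IsOptMap.isBrenierMap hK hint hY hμ hT)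
        (IsOptMap.isBrenierMap hK hint hY hν hS)
    · intro μ hμp hμ
      have hYne : Y.Nonempty := by
        by_contra hne
        rw [Set.not_nonempty_iff_eq_empty] at hne
        rw [hne, Set.compl_empty, measure_univ] at hμ
        exact one_ne_zero hμ
      obtain ⟨T, hT⟩ := exists_brenierMap hK hint hY hYne μ hμ
      exact ⟨T, IsBrenierMap.isOptMap hK hint hY hμ hT⟩

end Vale.Agent.Results.P074.ExponentBetweenQuarterAndThird
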